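import Vale.Agent.Lib.P063.Final

open Vale.Agent.Lib.P063

namespace Vale.Agent.Results.P063.A_width

/-- The Friedgut-Kalai conjecture for graph properties: for each `0 < ε < 1/2` there is a constant
`C` such that every nontrivial increasing graph property on `n ≥ 2` vertices has threshold width
`w_ε ≤ C / (log n)^2`. -/
theorem result : ∀ ε : ℝ, 0 < ε → ε < 1 / 2 → ∃ C : ℝ, ∀ n : ℕ, 2 ≤ n →
    ∀ P : Set (Edge n 2 → Bool), IsIncreasing P → IsInvariant P → IsNontrivial P →
      width ε P ≤ C / Real.log n ^ 2 :=
  fun _ hε hε2 => width_thm hε hε2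

end Vale.Agent.Results.P063.A_width
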